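import Vale.Agent.P097.H402.Equiv

/-!
# P097: integrability near the boundary is analytic integrability across the boundary

For a smooth convex table the following are equivalent: every phase point near the boundary lies on
an invariant graph; there is an invariant graph of periodic orbits for every small rational rotation
number; the table is analytic and the billiard map is, in analytic coordinates defined up to and
across the boundary, the shear `(x, w) ↦ (x + w, w)`.
-/

namespace Vale.Agent.Results.P097.AnalyticIntegrability

open Vale.Agent.P097 Vale.Agent.P097.H402

theorem result (h : ℝ → ℝ) (H : SmoothTable h) :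
    ((∃ η : ℝ, 0 < η ∧ Collar h η) ↔ (∃ η : ℝ, 0 < η ∧ H407.Leaves h η)) ∧
    ((∃ η : ℝ, 0 < η ∧ Collar h η) ↔ (IsTable h ∧ IntBd h)) :=
  equivalence H

end Vale.Agent.Results.P097.AnalyticIntegrability
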