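import Vale.Agent.P097.TC.Full

/-!
# P097: the near-boundary Birkhoff conjecture

A bounded strictly convex domain with smooth boundary of positive curvature which is integrable near
the boundary is an ellipse (possibly a disc). First part: the same for support functions, from the
invariant graphs of small angle alone, or from the rational invariant graphs of small rotation
number alone. Second part: the literal statement of the problem.
-/

namespace Vale.Agent.Results.P097.BirkhoffFull

open Vale.Agent.P097

theorem result :
    (∀ (h : ℝ → ℝ) (η : ℝ), SmoothTable h → 0 < η → (Collar h η ∨ H407.Leaves h η) →
      H407.IsEllipse h) ∧
    (∀ B : H438.Table, B.IntegrableNearBoundary → H438.EllipseDomain B.Ω) :=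
  TC.full

end Vale.Agent.Results.P097.BirkhoffFull
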