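import Vale.Agent.P097.H128.NZ.Reach
import Vale.Agent.P097.H536.T9

/-!
# P097: the radius of curvature never vanishes in the complex domain

For a smooth convex table which is integrable near the boundary: the exponents of the radius of
curvature at the finitely branched ends of its analytic continuation (along arbitrary chains of
domains); the radius of curvature never acquires a zero under analytic continuation; a table whose
support function extends to an entire function of finite order is a disc.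
-/

namespace Vale.Agent.Results.P097.ContinuedCurvature

open Vale.Agent.P097 Vale.Agent.P097.H536 Vale.Agent.P097.NZ Metric Topology

/-- integrability near the boundary, for the table with support function `h` -/
def Integrable (h : ℝ → ℝ) : Prop :=
  (SmoothTable h ∧ ∃ η : ℝ, 0 < η ∧ (Collar h η ∨ H407.Leaves h η)) ∨
  (∃ B : H438.Table, B.IntegrableNearBoundary ∧ h = supp B.Ω)

theorem collar_of {h : ℝ → ℝ} (H : Integrable h) : SmoothTable h ∧ ∃ η : ℝ, 0 < η ∧ Collar h η := by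
  rcases H with ⟨hs, η, hη, hc | hl⟩ | ⟨B, hB, rfl⟩
  · exact ⟨hs, η, hη, hc⟩
  · exact ⟨hs, (H402.equivalence hs).1.2 ⟨η, hη, hl⟩⟩
  · obtain ⟨η, hη, hc⟩ := B.collar_of_integrable hB
    have e : supp B.Ω = B.hs := funext (supp_eq B)
    rw [e]
    exact ⟨B.hs_table, η, hη, hc⟩

theorem result :
    (∀ h : ℝ → ℝ, Integrable h →
      (∀ (N : ℕ) (k : ℤ) (R ρ : ℂ → ℂ) (ψ₀ ξ₀ : ℂ) (ε : ℝ), 1 ≤ N → 0 < ε →
        DifferentiableOn ℂ R (ball 0 ε) → (∀ ξ ∈ ball (0 : ℂ) ε, R ξ ≠ 0) →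
        ξ₀ ∈ ball (0 : ℂ) ε → ξ₀ ≠ 0 → Reach h (ψ₀ + ξ₀ ^ N) ρ →
        (∀ᶠ ξ in 𝓝 ξ₀, ρ (ψ₀ + ξ ^ N) = ξ ^ k * R ξ) →
        k = 0 ∨ 2 * k = -3 * N ∨ k ≤ -2 * N) ∧
      (∀ (z : ℂ) (ρ σ : ℂ → ℂ) (D : Set ℂ), Reach h z ρ → IsOpen D → IsPreconnected D → z ∈ D →
        DifferentiableOn ℂ σ D → σ =ᶠ[𝓝 z] ρ → ∀ w ∈ D, σ w ≠ 0) ∧
      (∀ (H : ℂ → ℂ) (C : ℝ) (k : ℕ), Differentiable ℂ H → (∀ x : ℝ, H x = h x) →
        (∀ z, ‖H z‖ ≤ Real.exp (C * (1 + ‖z‖ ^ k))) →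
        ∃ r a b : ℝ, 0 < r ∧ ∀ x, h x = r + a * Real.cos x + b * Real.sin x)) ∧
    (∀ B : H438.Table, B.IntegrableNearBoundary →
      ∀ (H : ℂ → ℂ) (C : ℝ) (k : ℕ), Differentiable ℂ H → (∀ x : ℝ, H x = supp B.Ω x) →
        (∀ z, ‖H z‖ ≤ Real.exp (C * (1 + ‖z‖ ^ k))) →
        ∃ (c : ℂ) (r : ℝ), 0 < r ∧ B.Ω = ball c r) := by
  refine ⟨fun h hI => ?_, fun B hB H C k hH hx hb => ?_⟩
  · obtain ⟨hs, η, hη, hc⟩ := collar_of hI
    exact ⟨fun N k R ρ ψ₀ ξ₀ ε hN hε dR R0 h1 h2 hr he =>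
        reach_branch hη hs hc hN hε dR R0 h1 h2 hr he,
      fun z ρ σ D hr hD hp hz dσ he => reach_ne hη hs hc hr hD hp hz dσ he,
      fun H C k => finOrder h η hη hs hc H C k⟩
  · obtain ⟨hs, η, hη, hc⟩ := collar_of (Or.inr ⟨B, hB, rfl⟩)
    obtain ⟨r, a, b, hr, h⟩ := finOrder _ η hη hs hc H C k hH hx hb
    exact ⟨_, r, hr, ball_of_circle B hr fun x => by rw [← supp_eq]; exact h x⟩

end Vale.Agent.Results.P097.ContinuedCurvature
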