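import Vale.Agent.P097.H256.Fallback

/-!
# P097: natural boundary, with slow growth

A smooth convex table which is integrable near the boundary and which is not an ellipse has a
transcendental boundary; in the Lazutkin parameter `x` its normal angle `φ` and support number
`h (φ)` are holomorphic in a strip `|Im x| < b` such that the pair `(exp (i φ), h (φ))` has no
meromorphic extension near any point of the line `Im x = b`; the growth at the lines
`Im x = b`, `Im x = -b` is slower than that of `exp (d ^ (-ε))` for `φ` and its derivative, and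
slower than that of `exp (exp (d ^ (-ε)))` for the support number and its derivative, for every
`ε > 0`, where `d` is the distance to the lines.
-/

namespace Vale.Agent.Results.P097.NaturalBoundary

open Vale.Agent.P097 Polynomial

theorem result :
    (∀ (h : ℝ → ℝ) (η : ℝ), SmoothTable h → 0 < η → (Collar h η ∨ H407.Leaves h η) →
      ¬ H407.IsEllipse h →
      (¬ ∃ F : ℝ[X][X], F ≠ 0 ∧ ∀ ψ : ℝ, F.evalEval (bdry h ψ).re (bdry h ψ).im = 0) ∧
      ∃ (Λ : ℝ) (φ : ℝ → ℝ), H6.LazAngle h Λ φ ∧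
        ∃ (b : ℝ) (F G : ℂ → ℂ), 0 < b ∧ H6.Ext {z | |z.im| < b} φ (fun x => h (φ x)) F G ∧
          H6.NatBd b F G ∧ H256.Slow b F G) ∧
    (∀ B : H438.Table, B.IntegrableNearBoundary → ¬ H438.EllipseDomain B.Ω →
      (¬ ∃ F : ℝ[X][X], F ≠ 0 ∧ ∀ z ∈ frontier B.Ω, F.evalEval z.re z.im = 0) ∧
      ∃ (Λ : ℝ) (φ : ℝ → ℝ), H6.LazAngle (H536.supp B.Ω) Λ φ ∧
        ∃ (b : ℝ) (F G : ℂ → ℂ), 0 < b ∧
          H6.Ext {z | |z.im| < b} φ (fun x => H536.supp B.Ω (φ x)) F G ∧ H6.NatBd b F G ∧
            H256.Slow b F G) :=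
  ⟨fun _ _ Hs h0 hL hE =>
    ⟨fun hF => hE (Alg.ellipse_of_curve Alg.palg_main h0 Hs hL hF), H256.natb_slow h0 Hs hL hE⟩,
    fun B hB hE => ⟨fun hF => hE (Alg.domain_of_curve Alg.palg_main B hB hF),
      H256.natb_slow_table B hB hE⟩⟩

end Vale.Agent.Results.P097.NaturalBoundary
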